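import Mathlib

/-!
# A cubic form is given by a symmetric 3-tensor

Every homogeneous polynomial of degree three in `N` real variables can be written as
`∑ i j l, T i j l * x_i * x_j * x_l` with a tensor `T` that is symmetric in all its arguments.
-/

namespace Vale.Agent.H79

open MvPolynomial

/-- The cubic form of a 3-tensor. -/
noncomputable def cubPoly {N : ℕ} (T : Fin N → Fin N → Fin N → ℝ) : MvPolynomial (Fin N) ℝ :=
  ∑ i, ∑ j, ∑ l, C (T i j l) * X i * X j * X l

theorem cubPoly_add {N : ℕ} (T T' : Fin N → Fin N → Fin N → ℝ) :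
    cubPoly (fun i j l => T i j l + T' i j l) = cubPoly T + cubPoly T' := by
  simp only [cubPoly, map_add, add_mul, Finset.sum_add_distrib]

theorem cubPoly_zero {N : ℕ} : cubPoly (fun _ _ _ => (0 : ℝ) : Fin N → Fin N → Fin N → ℝ) = 0 := by
  simp [cubPoly]

theorem cubPoly_smul {N : ℕ} (a : ℝ) (T : Fin N → Fin N → Fin N → ℝ) :
    cubPoly (fun i j l => a * T i j l) = C a * cubPoly T := by
  simp only [cubPoly, map_mul, Finset.mul_sum]
  refine Finset.sum_congr rfl fun i _ => Finset.sum_congr rfl fun j _ =>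
    Finset.sum_congr rfl fun l _ => ?_
  ring

theorem cubPoly_swap12 {N : ℕ} (T : Fin N → Fin N → Fin N → ℝ) :
    cubPoly (fun i j l => T j i l) = cubPoly T := by
  simp only [cubPoly]
  rw [Finset.sum_comm]
  refine Finset.sum_congr rfl fun i _ => Finset.sum_congr rfl fun j _ =>
    Finset.sum_congr rfl fun l _ => ?_
  ring

theorem cubPoly_swap23 {N : ℕ} (T : Fin N → Fin N → Fin N → ℝ) :
    cubPoly (fun i j l => T i l j) = cubPoly T := by
  simp only [cubPoly]
  refine Finset.sum_congr rfl fun i _ => ?_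
  rw [Finset.sum_comm]
  refine Finset.sum_congr rfl fun j _ => Finset.sum_congr rfl fun l _ => ?_
  ring

theorem finsupp_degree_two' {σ : Type} [DecidableEq σ] (d : σ →₀ ℕ) (h : d.degree = 2) :
    ∃ i k, d = Finsupp.single i 1 + Finsupp.single k 1 := by
  have hne : d ≠ 0 := by
    rintro rfl
    simp at h
  obtain ⟨i, hi⟩ := Finsupp.ne_iff.mp hne
  have hle : Finsupp.single i 1 ≤ d := by
    rw [Finsupp.single_le_iff]
    have : d i ≠ 0 := by simpa using hi
    omega
  have hd : d = (d - Finsupp.single i 1) + Finsupp.single i 1 := (tsub_add_cancel_of_le hle).symm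
  have hdeg : (d - Finsupp.single i 1).degree = 1 := by
    have := congrArg Finsupp.degree hd
    rw [map_add, Finsupp.degree_single, h] at this
    omega
  have hmem : (d - Finsupp.single i 1) ∈ {d : σ →₀ ℕ | d.degree = 1} := hdeg
  rw [← Finsupp.range_single_one] at hmem
  obtain ⟨k, hk⟩ := hmem
  refine ⟨k, i, ?_⟩
  have hk' : Finsupp.single k 1 = d - Finsupp.single i 1 := hk
  rw [hk']
  exact hd

theorem finsupp_degree_three {σ : Type} [DecidableEq σ] (d : σ →₀ ℕ) (h : d.degree = 3) :
    ∃ i j l, d = Finsupp.single i 1 + Finsupp.single j 1 + Finsupp.single l 1 := by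
  have hne : d ≠ 0 := by
    rintro rfl
    simp at h
  obtain ⟨i, hi⟩ := Finsupp.ne_iff.mp hne
  have hle : Finsupp.single i 1 ≤ d := by
    rw [Finsupp.single_le_iff]
    have : d i ≠ 0 := by simpa using hi
    omega
  have hd : d = (d - Finsupp.single i 1) + Finsupp.single i 1 := (tsub_add_cancel_of_le hle).symm
  have hdeg : (d - Finsupp.single i 1).degree = 2 := by
    have := congrArg Finsupp.degree hd
    rw [map_add, Finsupp.degree_single, h] at this
    omega
  obtain ⟨j, l, hjl⟩ := finsupp_degree_two' _ hdeg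
  refine ⟨j, l, i, ?_⟩
  rw [← hjl]
  exact hd

/-- A single monomial of degree three is the cubic form of a tensor. -/
theorem exists_cubPoly_monomial {N : ℕ} (i j l : Fin N) (v : ℝ) :
    ∃ T : Fin N → Fin N → Fin N → ℝ,
      monomial (Finsupp.single i 1 + Finsupp.single j 1 + Finsupp.single l 1) v = cubPoly T := by
  refine ⟨fun a b e => if a = i then (if b = j then (if e = l then v else 0) else 0) else 0, ?_⟩
  rw [cubPoly, Finset.sum_eq_single i]
  · rw [Finset.sum_eq_single j]
    · rw [Finset.sum_eq_single l]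
      · simp [X, C_mul_monomial, monomial_mul]
      · intro l' _ hl'
        simp [hl']
      · intro hl
        exact absurd (Finset.mem_univ l) hl
    · intro j' _ hj'
      apply Finset.sum_eq_zero
      intro l' _
      simp [hj']
    · intro hj
      exact absurd (Finset.mem_univ j) hj
  · intro i' _ hi'
    apply Finset.sum_eq_zero
    intro j' _
    apply Finset.sum_eq_zero
    intro l' _
    simp [hi']
  · intro hi
    exact absurd (Finset.mem_univ i) hi

theorem exists_cubPoly_of_isHomogeneous {N : ℕ} (c : MvPolynomial (Fin N) ℝ)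
    (hc : c.IsHomogeneous 3) : ∃ T : Fin N → Fin N → Fin N → ℝ, c = cubPoly T := by
  have h := c.support_sum_monomial_coeff
  rw [← h]
  apply Finset.sum_induction
    (p := fun f : MvPolynomial (Fin N) ℝ => ∃ T : Fin N → Fin N → Fin N → ℝ, f = cubPoly T)
  · rintro _ _ ⟨T, rfl⟩ ⟨T', rfl⟩
    exact ⟨fun i j l => T i j l + T' i j l, (cubPoly_add T T').symm⟩
  · exact ⟨fun _ _ _ => 0, cubPoly_zero.symm⟩
  · intro d hd
    have hdeg : d.degree = 3 := by
      rw [Finsupp.degree_eq_weight_one, ← Pi.one_def]
      exact hc (mem_support_iff.mp hd)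
    obtain ⟨i, j, l, rfl⟩ := finsupp_degree_three d hdeg
    exact exists_cubPoly_monomial i j l _

/-- **A cubic form is given by a symmetric 3-tensor.** -/
theorem exists_symm_tensor {N : ℕ} (c : MvPolynomial (Fin N) ℝ) (hc : c.IsHomogeneous 3) :
    ∃ T : Fin N → Fin N → Fin N → ℝ, (∀ i j l, T i j l = T j i l) ∧ (∀ i j l, T i j l = T i l j) ∧
      c = ∑ i, ∑ j, ∑ l,
        MvPolynomial.C (T i j l) * MvPolynomial.X i * MvPolynomial.X j * MvPolynomial.X l := by
  obtain ⟨T, hT⟩ := exists_cubPoly_of_isHomogeneous c hc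
  refine ⟨fun i j l => (1 / 6 : ℝ) *
    (T i j l + T i l j + T j i l + T j l i + T l i j + T l j i), ?_, ?_, ?_⟩
  · intro i j l
    ring
  · intro i j l
    ring
  · change c = cubPoly (fun i j l => (1 / 6 : ℝ) *
      (T i j l + T i l j + T j i l + T j l i + T l i j + T l j i))
    have h1 : cubPoly (fun i j l => T i l j) = cubPoly T := cubPoly_swap23 T
    have h2 : cubPoly (fun i j l => T j i l) = cubPoly T := cubPoly_swap12 T
    have h3 : cubPoly (fun i j l => T j l i) = cubPoly T := by
      rw [cubPoly_swap12 (fun i j l => T i l j), h1]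
    have h4 : cubPoly (fun i j l => T l i j) = cubPoly T := by
      rw [cubPoly_swap23 (fun i j l => T j i l), h2]
    have h5 : cubPoly (fun i j l => T l j i) = cubPoly T := by
      rw [cubPoly_swap12 (fun i j l => T l i j), h4]
    rw [cubPoly_smul, cubPoly_add, cubPoly_add, cubPoly_add, cubPoly_add, cubPoly_add,
      h1, h2, h3, h4, h5, ← hT]
    have h6 : (C (1 / 6 : ℝ) : MvPolynomial (Fin N) ℝ) * (c + c + c + c + c + c) = c := by
      have h7 : c + c + c + c + c + c = C (6 : ℝ) * c := by
        have h8 : (C (6 : ℝ) : MvPolynomial (Fin N) ℝ) = 6 := map_ofNat C 6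
        rw [h8]
        ring
      rw [h7, ← mul_assoc, ← C_mul]
      norm_num
    exact h6.symm

end Vale.Agent.H79
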