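import Mathlib

/-!
# A surjection onto the free group of rank two

If the image of `φ : G →* FreeGroup (Fin 2)` is not cyclic (witnessed by two homomorphisms to
`ℤ`), then `G` maps onto `FreeGroup (Fin 2)`: the image is free (Nielsen–Schreier) on at least
two generators.
-/

namespace Vale.Agent.H79

/-- A free group on at most one generator consists of the powers of one element. -/
theorem freeGroup_zpow_of_subsingleton {ι : Type*} [Subsingleton ι] :
    ∃ v : FreeGroup ι, ∀ x : FreeGroup ι, ∃ s : ℤ, x = v ^ s := by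
  by_cases hne : Nonempty ι
  · obtain ⟨i⟩ := hne
    refine ⟨FreeGroup.of i, fun x => ?_⟩
    refine FreeGroup.induction_on x ?_ ?_ ?_ ?_
    · exact ⟨0, by simp⟩
    · intro j
      exact ⟨1, by rw [Subsingleton.elim j i]; simp⟩
    · intro j _
      exact ⟨-1, by rw [Subsingleton.elim j i]; simp⟩
    · rintro a b ⟨s, rfl⟩ ⟨t, rfl⟩
      exact ⟨s + t, (zpow_add _ _ _).symm⟩
  · have : IsEmpty ι := not_nonempty_iff.mp hne
    exact ⟨1, fun x => ⟨0, Subsingleton.elim _ _⟩⟩

/-- In `Multiplicative ℤ` a nonzero power is trivial only for the trivial element. -/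
theorem mulInt_eq_one_of_zpow {x : Multiplicative ℤ} {s : ℤ} (hs : s ≠ 0) (h : x ^ s = 1) :
    x = 1 := by
  have h1 : Multiplicative.toAdd (x ^ s) = 0 := by rw [h]; rfl
  rw [toAdd_zpow, smul_eq_mul] at h1
  rcases mul_eq_zero.mp h1 with h2 | h2
  · exact absurd h2 hs
  · exact Multiplicative.toAdd.injective h2

theorem exists_surj_free2 {G : Type} [Group G] (φ : G →* FreeGroup (Fin 2)) (g h : G)
    (e1 e2 : FreeGroup (Fin 2) →* Multiplicative ℤ)
    (h1 : e1 (φ g) ≠ 1) (h2 : e2 (φ g) = 1) (h3 : e2 (φ h) ≠ 1) :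
    ∃ ψ : G →* FreeGroup (Fin 2), Function.Surjective ψ := by
  classical
  have : IsFreeGroup φ.range := subgroupIsFreeOfIsFree φ.range
  by_cases hgen : ∃ i0 i1 : IsFreeGroup.Generators φ.range, i0 ≠ i1
  · obtain ⟨i0, i1, hne⟩ := hgen
    set ψ0 : φ.range →* FreeGroup (Fin 2) := IsFreeGroup.lift
      (fun i => if i = i0 then FreeGroup.of 0 else if i = i1 then FreeGroup.of 1 else 1) with hψ0
    have hs0 : Function.Surjective ψ0 := by
      rw [← MonoidHom.range_eq_top, eq_top_iff, ← FreeGroup.closure_range_of, Subgroup.closure_le]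
      rintro _ ⟨k, rfl⟩
      fin_cases k
      · refine ⟨IsFreeGroup.of i0, ?_⟩
        rw [hψ0, IsFreeGroup.lift_of]
        simp
      · refine ⟨IsFreeGroup.of i1, ?_⟩
        rw [hψ0, IsFreeGroup.lift_of]
        simp [hne.symm]
    exact ⟨ψ0.comp φ.rangeRestrict, hs0.comp φ.rangeRestrict_surjective⟩
  · exfalso
    have : Subsingleton (IsFreeGroup.Generators φ.range) :=
      ⟨fun a b => by
        by_contra hab
        exact hgen ⟨a, b, hab⟩⟩
    obtain ⟨v', hv'⟩ :=
      freeGroup_zpow_of_subsingleton (ι := IsFreeGroup.Generators φ.range)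
    set E := IsFreeGroup.toFreeGroup φ.range with hE
    -- every element of the image is a power of `v`
    have hv : ∀ x : φ.range, ∃ s : ℤ, (x : FreeGroup (Fin 2)) = ((E.symm v' : φ.range) :
        FreeGroup (Fin 2)) ^ s := by
      intro x
      obtain ⟨s, hs⟩ := hv' (E x)
      refine ⟨s, ?_⟩
      have h4 : x = (E.symm v') ^ s := by
        apply E.injective
        rw [map_zpow, MulEquiv.apply_symm_apply, hs]
      rw [h4, Subgroup.coe_zpow]
    obtain ⟨s, hs⟩ := hv ⟨φ g, g, rfl⟩
    obtain ⟨t, ht⟩ := hv ⟨φ h, h, rfl⟩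
    simp only at hs ht
    have hs0 : s ≠ 0 := by
      rintro rfl
      rw [zpow_zero] at hs
      rw [hs, map_one] at h1
      exact h1 rfl
    rw [hs, map_zpow] at h2
    have h5 := mulInt_eq_one_of_zpow hs0 h2
    rw [ht, map_zpow, h5, one_zpow] at h3
    exact h3 rfl

end Vale.Agent.H79
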