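import Mathlib
import Vale.Agent.H79.Quad

/-!
# Weighted homogeneous polynomials with a linear term are coordinates
-/

namespace Vale.Agent.H79

open MvPolynomial

section WHom

variable {σ : Type*} [Fintype σ] [DecidableEq σ]

/-- A polynomial with a constant nonzero derivative in one variable is a coordinate. -/
theorem exists_equiv_of_pderiv_eq_C (f : MvPolynomial σ ℂ) (k : σ) (c : ℂ) (hc : c ≠ 0)
    (h : pderiv k f = C c) :
    ∃ ψ : MvPolynomial σ ℂ ≃ₐ[ℂ] MvPolynomial σ ℂ, ψ (X k) = f :=
  ⟨elemEquiv k c hc f, by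
    rw [elemEquiv_apply, elemHom_X_self, ← eq_of_pderiv_eq_C k f c h]⟩

/-- For positive weights, a weighted homogeneous polynomial containing the monomial `X i`
has constant derivative in the direction `i`. -/
theorem pderiv_eq_C_of_isWeightedHomogeneous (w : σ → ℕ) (hw : ∀ i, 0 < w i) (d : ℕ)
    (f : MvPolynomial σ ℂ) (hf : IsWeightedHomogeneous w f d) (i : σ)
    (hi : coeff (Finsupp.single i 1) f ≠ 0) :
    pderiv i f = C (coeff (Finsupp.single i 1) f) := by
  have hd : d = w i := by
    have := hf hi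
    rw [Finsupp.weight_single, smul_eq_mul, one_mul] at this
    exact this.symm
  ext m
  rw [coeff_pderiv, coeff_C]
  split_ifs with hm
  · subst hm
    simp
  · have hm0 : m ≠ 0 := fun h0 => hm h0.symm
    obtain ⟨x, hx⟩ : ∃ x, m x ≠ 0 := by
      by_contra hcon
      push Not at hcon
      exact hm0 (Finsupp.ext hcon)
    have h0 : coeff (m + Finsupp.single i 1) f = 0 := by
      by_contra hne
      have h1 := hf hne
      rw [map_add, Finsupp.weight_single, smul_eq_mul, one_mul, hd] at h1
      have h2 : m x ≤ Finsupp.weight w m := Finsupp.le_weight w (Nat.pos_iff_ne_zero.mp (hw x)) m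
      have h3 : 0 < m x := Nat.pos_of_ne_zero hx
      omega
    rw [h0, zero_mul]

/-- For positive weights, a weighted homogeneous polynomial whose gradient does not vanish
at the origin is a coordinate. -/
theorem exists_equiv_of_isWeightedHomogeneous (w : σ → ℕ) (hw : ∀ i, 0 < w i) (d : ℕ)
    (f : MvPolynomial σ ℂ) (hf : IsWeightedHomogeneous w f d)
    (h0 : ∃ i, eval (0 : σ → ℂ) (pderiv i f) ≠ 0) :
    ∃ (ψ : MvPolynomial σ ℂ ≃ₐ[ℂ] MvPolynomial σ ℂ) (i : σ), ψ (X i) = f := by
  obtain ⟨i, hi⟩ := h0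
  have hc : coeff (Finsupp.single i 1) f ≠ 0 := by
    intro hz
    apply hi
    rw [eval_zero, constantCoeff_eq, coeff_pderiv]
    simp [hz]
  obtain ⟨ψ, hψ⟩ := exists_equiv_of_pderiv_eq_C f i _ hc
    (pderiv_eq_C_of_isWeightedHomogeneous w hw d f hf i hc)
  exact ⟨ψ, i, hψ⟩

end WHom

end Vale.Agent.H79
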